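import Vale.Agent.P076.R2.H64.Defs

/-!
# P076, thin sets of times, row A: the regularisation
-/

set_option linter.all false

open MeasureTheory Complex FourierTransform Filter Topology Set
open scoped ENNReal NNReal

namespace Vale.Agent.P076.R2.H64

open Vale.Agent.P076 Vale.Agent.P076.H791

variable {n : ℕ}

theorem Shell.integrable408 {R : ℝ} {G : E n → ℂ} (hG : Shell R G) : Integrable G := by
  refine ⟨hG.meas.aestronglyMeasurable, ?_⟩
  have h1 : ∀ η, ‖G η‖ₑ ≤ ‖G η‖ₑ ^ 2 + (Metric.closedBall (0 : E n) (2 * R)).indicator 1 η := by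
    intro η
    by_cases h0 : G η = 0
    · simp [h0]
    · have hη : η ∈ Metric.closedBall (0 : E n) (2 * R) := by
        rw [mem_closedBall_zero_iff]
        exact (hG.supp η h0).2
      rw [Set.indicator_of_mem hη, Pi.one_apply]
      rcases le_total ‖G η‖ₑ 1 with h | h
      · exact h.trans le_add_self
      · refine le_trans ?_ le_self_add
        calc ‖G η‖ₑ = ‖G η‖ₑ * 1 := (mul_one _).symm
          _ ≤ ‖G η‖ₑ * ‖G η‖ₑ := by gcongr
          _ = ‖G η‖ₑ ^ 2 := (sq _).symm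
  calc ∫⁻ η, ‖G η‖ₑ ≤ ∫⁻ η, (‖G η‖ₑ ^ 2 +
        (Metric.closedBall (0 : E n) (2 * R)).indicator 1 η) := lintegral_mono h1
    _ = (∫⁻ η, ‖G η‖ₑ ^ 2) + ∫⁻ η, (Metric.closedBall (0 : E n) (2 * R)).indicator 1 η :=
        lintegral_add_right _ (measurable_one.indicator measurableSet_closedBall)
    _ = (∫⁻ η, ‖G η‖ₑ ^ 2) + volume (Metric.closedBall (0 : E n) (2 * R)) := by
        rw [lintegral_indicator_one measurableSet_closedBall]
    _ < ⊤ := ENNReal.add_lt_top.2 ⟨lt_top_iff_ne_top.2 hG.l2, measure_closedBall_lt_top⟩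

/-- the integral of the regularised multiplier -/
theorem int_reg408 {r : ℝ} (hr : 0 < r) (a : ℝ) :
    ∫ a' in Ioi a, r ^ 2 * Real.exp (-(a' * r ^ 2)) = Real.exp (-(a * r ^ 2)) := by
  have h : ∀ a', r ^ 2 * Real.exp (-(a' * r ^ 2)) = r ^ 2 * Real.exp (-(r ^ 2) * a') := by
    intro a'; congr 2; ring
  simp_rw [h]
  rw [integral_const_mul, integral_exp_mul_Ioi (by nlinarith [sq_pos_of_pos hr]) a]
  have hr2 : r ^ 2 ≠ 0 := by positivity
  have e : -(r ^ 2) * a = -(a * r ^ 2) := by ring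
  rw [e, neg_div_neg_eq, mul_div_cancel₀]
  exact hr2

/-- the integrand -/
noncomputable def FF408 (G : E n → ℂ) (x : E n) (s : ℝ) (η : E n) (a' : ℝ) : ℂ :=
  cexp (2 * Real.pi * I * ((inner ℝ x η - s * ‖η‖ ^ 2 : ℝ) : ℂ) - ((0 : ℝ) * ‖η‖ ^ 2 : ℝ)) *
    Ga a' G η

theorem norm_FF408 (G : E n → ℂ) (x : E n) (s : ℝ) (η : E n) (a' : ℝ) :
    ‖FF408 G x s η a'‖ = ‖η‖ ^ 2 * Real.exp (-(a' * ‖η‖ ^ 2)) * ‖G η‖ := by
  have h1 : ‖cexp (2 * Real.pi * I * ((inner ℝ x η - s * ‖η‖ ^ 2 : ℝ) : ℂ) -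
      ((0 : ℝ) * ‖η‖ ^ 2 : ℝ))‖ = 1 := by
    have e : 2 * Real.pi * I * ((inner ℝ x η - s * ‖η‖ ^ 2 : ℝ) : ℂ) -
        ((0 : ℝ) * ‖η‖ ^ 2 : ℝ) =
        ((2 * Real.pi * (inner ℝ x η - s * ‖η‖ ^ 2) : ℝ) : ℂ) * I := by
      push_cast
      ring
    rw [e, Complex.norm_exp_ofReal_mul_I]
  rw [FF408, norm_mul, h1, one_mul, Ga, norm_mul, Complex.norm_real, Real.norm_of_nonneg]
  positivity

theorem FF408_meas {R : ℝ} {G : E n → ℂ} (hG : Shell R G) (x : E n) (s : ℝ) :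
    Measurable (fun z : E n × ℝ => FF408 G x s z.1 z.2) := by
  have h1 : Continuous (fun z : E n × ℝ => cexp (2 * Real.pi * I *
      ((inner ℝ x z.1 - s * ‖z.1‖ ^ 2 : ℝ) : ℂ) - ((0 : ℝ) * ‖z.1‖ ^ 2 : ℝ))) := by
    fun_prop
  have h2 : Continuous (fun z : E n × ℝ =>
      ((‖z.1‖ ^ 2 * Real.exp (-(z.2 * ‖z.1‖ ^ 2)) : ℝ) : ℂ)) := by
    fun_prop
  exact h1.measurable.mul (h2.measurable.mul (hG.meas.comp measurable_fst))

theorem FF408_int {R : ℝ} (hR : 0 < R) {G : E n → ℂ} (hG : Shell R G) (x : E n) (s a : ℝ) :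
    Integrable (fun z : E n × ℝ => FF408 G x s z.1 z.2)
      ((volume : Measure (E n)).prod (volume.restrict (Ioi a))) := by
  have hg : Integrable (fun η : E n => (2 * R) ^ 2 * ‖G η‖) := (hG.integrable408.norm).const_mul _
  have hh1 : Integrable (fun a' : ℝ => Real.exp (-(R ^ 2) * a')) (volume.restrict (Ioi a)) :=
    integrableOn_exp_mul_Ioi (by nlinarith [sq_pos_of_pos hR]) a
  have hh2 : Integrable (fun a' : ℝ => Real.exp (-((2 * R) ^ 2) * a')) (volume.restrict (Ioi a)) :=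
    integrableOn_exp_mul_Ioi (by nlinarith [sq_pos_of_pos hR]) a
  have hp := hg.mul_prod (hh1.add hh2)
  refine hp.mono' (FF408_meas hG x s).aestronglyMeasurable (Eventually.of_forall fun z => ?_)
  rw [norm_FF408]
  simp only [Pi.add_apply]
  by_cases h0 : G z.1 = 0
  · rw [h0, norm_zero, mul_zero, mul_zero, zero_mul]
  · obtain ⟨h1, h2⟩ := hG.supp z.1 h0
    have h3 : ‖z.1‖ ^ 2 ≤ (2 * R) ^ 2 := by gcongr
    have h4 : R ^ 2 ≤ ‖z.1‖ ^ 2 := by gcongr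
    have h5 : Real.exp (-(z.2 * ‖z.1‖ ^ 2)) ≤
        Real.exp (-(R ^ 2) * z.2) + Real.exp (-((2 * R) ^ 2) * z.2) := by
      rcases le_total 0 z.2 with h | h
      · have : Real.exp (-(z.2 * ‖z.1‖ ^ 2)) ≤ Real.exp (-(R ^ 2) * z.2) := by
          apply Real.exp_le_exp.2
          nlinarith
        linarith [Real.exp_pos (-((2 * R) ^ 2) * z.2)]
      · have : Real.exp (-(z.2 * ‖z.1‖ ^ 2)) ≤ Real.exp (-((2 * R) ^ 2) * z.2) := by
          apply Real.exp_le_exp.2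
          nlinarith
        linarith [Real.exp_pos (-(R ^ 2) * z.2)]
    calc ‖z.1‖ ^ 2 * Real.exp (-(z.2 * ‖z.1‖ ^ 2)) * ‖G z.1‖
        ≤ (2 * R) ^ 2 * (Real.exp (-(R ^ 2) * z.2) + Real.exp (-((2 * R) ^ 2) * z.2)) *
            ‖G z.1‖ := by gcongr
      _ = (2 * R) ^ 2 * ‖G z.1‖ *
            (Real.exp (-(R ^ 2) * z.2) + Real.exp (-((2 * R) ^ 2) * z.2)) := by ring

theorem FF408_inner {R : ℝ} (hR : 0 < R) {G : E n → ℂ} (hG : Shell R G) (x : E n) (s a : ℝ)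
    (η : E n) : ∫ a' in Ioi a, FF408 G x s η a' =
      cexp (2 * Real.pi * I * ((inner ℝ x η - s * ‖η‖ ^ 2 : ℝ) : ℂ) - (a * ‖η‖ ^ 2 : ℝ)) * G η := by
  by_cases h0 : G η = 0
  · simp [FF408, Ga, h0]
  · have hr : 0 < ‖η‖ := lt_of_lt_of_le hR (hG.supp η h0).1
    simp only [FF408, Ga]
    rw [integral_const_mul, integral_mul_const, integral_complex_ofReal, int_reg408 hr a,
      ← mul_assoc]
    congr 1
    rw [Complex.ofReal_exp, ← Complex.exp_add]
    congr 1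
    push_cast
    ring

/-- ROW A (regularisation). -/
theorem sup_a {R : ℝ} (hR : 0 < R) {G : E n → ℂ} (hG : Shell R G) (x : E n) (s : ℝ) {a : ℝ}
    (ha : 0 ≤ a) :
    ‖evo G x s a‖ₑ ≤ ∫⁻ a' in Ioi (0 : ℝ), ‖evo (Ga a' G) x s 0‖ₑ := by
  have h1 : evo G x s a = ∫ a' in Ioi a, evo (Ga a' G) x s 0 := by
    have h2 : evo G x s a = ∫ η : E n, ∫ a' in Ioi a, FF408 G x s η a' := by
      unfold evo
      exact integral_congr_ae (Eventually.of_forall fun η => (FF408_inner hR hG x s a η).symm)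
    rw [h2, integral_integral_swap (FF408_int hR hG x s a)]
    rfl
  rw [h1]
  refine (enorm_integral_le_lintegral_enorm _).trans ?_
  exact lintegral_mono_set (Ioi_subset_Ioi ha)

end Vale.Agent.P076.R2.H64
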